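import Vale.Agent.Lib.P161.Final

/-!
The free Ising measure on the `d`-regular tree is a factor of iid in the whole range
`(d - 1) * tanh β ^ 2 < 1`.
-/

open MeasureTheory

namespace Vale.Agent.Results.P161.A_main

/-- For `d ≥ 3`, every `d`-regular tree and `(d - 1) tanh² β < 1`: there is a measurable map `Φ` of
iid uniform labels, equivariant almost surely under each automorphism, whose output has exactly
the marginals of the free Ising measure on every finite connected set of vertices. -/
theorem result (d : ℕ) (hd : 3 ≤ d) (V : Type) (G : SimpleGraph V) (hT : G.IsTree)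
    (hdeg : ∀ v, (G.neighborSet v).ncard = d) (β : ℝ) (hβ : 0 ≤ β)
    (hκ : ((d : ℝ) - 1) * (Real.tanh β) ^ 2 < 1) :
    ∃ Φ : (V → unitInterval) → (V → Bool), Measurable Φ ∧
      (∀ g : G ≃g G, ∀ᵐ U ∂(Measure.infinitePi fun _ : V => (volume : Measure unitInterval)),
        Φ (fun v => U (g.symm v)) = fun v => Φ U (g.symm v)) ∧
      ∀ D : Finset V, (G.induce (D : Set V)).Connected → ∀ η : V → Bool,
        (Measure.infinitePi fun _ : V => (volume : Measure unitInterval)).real
            {U | ∀ v ∈ D, Φ U v = η v}
          = Vale.Agent.Lib.P161.isingWeight G (Real.tanh β) D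
              (fun v => Vale.Agent.Lib.P161.spinOf (η v)) := by
  have h0 : 0 ≤ Real.tanh β := by
    rw [Real.tanh_eq_sinh_div_cosh]
    exact div_nonneg (Real.sinh_nonneg_iff.2 hβ) (Real.cosh_pos β).le
  exact Vale.Agent.Lib.P161.free_ising_fiid hd hT hdeg h0 hκ

end Vale.Agent.Results.P161.A_main
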